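import Vale.Agent.P198.E.Main

/-! # P198 block P, file Pot: existence of harmonic condenser potentials -/

namespace Vale.Agent.P198
open Set Metric Filter Topology MeasureTheory
variable {G Z : Type} [Group G] [MetricSpace Z] [CompactSpace Z] [MulAction G Z]
  [ContinuousConstSMul G Z] [MeasurableSpace Z] [BorelSpace Z]

omit [BorelSpace Z] in
theorem total_PPot (D : DF G Z) {f : C(Z, ℝ)} (hf : f ∈ D.dom) (S : Set Z) :
    (D.Γ f).real S ≤ D.I 1 f f := by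
  have := D.fin f
  rw [D.repr 1 f hf]
  simp only [ContinuousMap.one_apply, integral_const, smul_eq_mul, mul_one]
  exact measureReal_mono (subset_univ _)

/-- Monotone functions of bounded energy are equicontinuous. -/
theorem equi_PPot (D : DF G Z) {E F : Set Z} (hE : Cont E) (hF : Cont F) (hE' : E.Nontrivial)
    (hF' : F.Nontrivial) (B : ℝ) {η : ℝ} (hη : 0 < η) : ∃ δ > 0, ∀ g ∈ D.dom, Cond E F g →
      Mon E F g → D.I 1 g g ≤ B → ∀ ξ ζ, dist ξ ζ < δ → dist (g ξ) (g ζ) < η := by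
  have hε : 0 < min (diam E) (diam F) :=
    lt_min (diam_pos hE' hE.1.isBounded) (diam_pos hF' hF.1.isBounded)
  obtain ⟨τ, hτ, H⟩ := D.l1 ((|B| + 1) / η ^ 2)
  refine ⟨τ * min (diam E) (diam F), mul_pos hτ hε, fun g hg hc hm hB => ?_⟩
  have key : ∀ ξ ζ, dist ζ ξ < τ * min (diam E) (diam F) → g ζ ≤ g ξ → g ξ - g ζ < η := by
    intro ξ ζ hd hle
    obtain ⟨K₁, hK₁, hξ, hF₁, h1⟩ := (hm ξ).1
    obtain ⟨K₀, hK₀, hζ, hE₀, h0⟩ := (hm ζ).2
    have c₀ : Cont (K₀ ∪ E) := ⟨hK₀.1.union hE.1, hK₀.2.union hE₀ hE.2⟩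
    have c₁ : Cont (K₁ ∪ F) := ⟨hK₁.1.union hF.1, hK₁.2.union hF₁ hF.2⟩
    have cfg : Cfg g (K₀ ∪ E) (K₁ ∪ F) (min (diam E) (diam F)) (g ζ) (g ξ) :=
      { c₀ := c₀, c₁ := c₁, pos := hε
        d₀ := (min_le_left _ _).trans (diam_mono subset_union_right c₀.1.isBounded)
        d₁ := (min_le_right _ _).trans (diam_mono subset_union_right c₁.1.isBounded)
        le := hle
        f₀ := fun ω hω => hω.elim (h0 ω) fun h => by rw [hc.2.1 ω h]; exact (hc.1 ζ).1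
        f₁ := fun ω hω => hω.elim (h1 ω) fun h => by rw [hc.2.2 ω h]; exact (hc.1 ξ).2 }
    have h2 := (H g hg _ _ _ _ _ cfg ζ (Or.inl hζ) ξ (Or.inl hξ) hd.le).trans
      ((total_PPot D hg _).trans (hB.trans (le_abs_self B)))
    by_contra h3
    have h4 : η ^ 2 ≤ (g ξ - g ζ) ^ 2 := pow_le_pow_left₀ hη.le (not_lt.1 h3) 2
    have h5 : (|B| + 1) / η ^ 2 * η ^ 2 ≤ (|B| + 1) / η ^ 2 * (g ξ - g ζ) ^ 2 :=
      mul_le_mul_of_nonneg_left h4 (by positivity)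
    rw [div_mul_cancel₀ _ (by positivity)] at h5
    linarith
  intro ξ ζ hd
  rw [Real.dist_eq, abs_sub_lt_iff]
  rcases le_total (g ζ) (g ξ) with h | h
  · exact ⟨key ξ ζ (by rwa [dist_comm]) h, by linarith⟩
  · exact ⟨by linarith, key ζ ξ hd h⟩

omit [MeasurableSpace Z] [BorelSpace Z] in
theorem ascoli_PPot (g : ℕ → C(Z, ℝ)) (h01 : ∀ n ξ, 0 ≤ g n ξ ∧ g n ξ ≤ 1)
    (he : ∀ η > 0, ∃ δ > 0, ∀ n ξ ζ, dist ξ ζ < δ → dist (g n ξ) (g n ζ) < η) :
    ∃ (u : C(Z, ℝ)) (φ : ℕ → ℕ), StrictMono φ ∧ Tendsto (g ∘ φ) atTop (𝓝 u) := by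
  let e := ContinuousMap.isometryEquivBoundedOfCompact Z ℝ
  have h1 := BoundedContinuousFunction.arzela_ascoli (Icc (0 : ℝ) 1) isCompact_Icc
    (range fun n => e (g n)) (by
      rintro _ x ⟨n, rfl⟩
      exact h01 n x) (by
      intro x
      rw [Metric.equicontinuousAt_iff]
      intro η hη
      obtain ⟨δ, hδ, H⟩ := he η hη
      refine ⟨δ, hδ, fun y hy => ?_⟩
      rintro ⟨_, n, rfl⟩
      exact H n x y (by rwa [dist_comm]))
  obtain ⟨a, -, φ, hφ, ha⟩ := h1.tendsto_subseq (x := fun n => e (g n))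
    fun n => subset_closure (mem_range_self n)
  refine ⟨e.symm a, φ, hφ, ?_⟩
  have h2 := (e.symm.continuous.tendsto a).comp ha
  simpa [Function.comp_def] using h2

/-- The minimizer. -/
theorem min_PPot (X : GP G Z) (D : DF G Z) {E F : Set Z} (hE : Cont E) (hF : Cont F)
    (hE' : E.Nontrivial) (hF' : F.Nontrivial) (hd : Disjoint E F) :
    ∃ u ∈ D.dom, Cond E F u ∧ ∀ f ∈ D.dom, Cond E F f → D.I 1 u u ≤ D.I 1 f f := by
  obtain ⟨h1, h2, -⟩ := sph_conn X.sph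
  let S : Set ℝ := {r | ∃ f ∈ D.dom, Cond E F f ∧ D.I 1 f f = r}
  have hS : S.Nonempty := by
    obtain ⟨χ, hχ, h01, hK, hO⟩ := D.cutoff hF.1 hE.1.isClosed.isOpen_compl
      hd.subset_compl_left
    refine ⟨_, χ, hχ, ⟨h01, fun ξ hξ => ?_, fun ξ hξ => hK.self_of_nhdsSet ξ hξ⟩, rfl⟩
    exact image_eq_zero_of_notMem_tsupport fun h => hO h hξ
  have hb : BddBelow S := ⟨0, by
    rintro _ ⟨f, hf, -, rfl⟩
    exact D.nonneg (fun _ => zero_le_one) hf⟩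
  have h3 : ∀ n : ℕ, ∃ g ∈ D.dom, Cond E F g ∧ Mon E F g ∧
      D.I 1 g g ≤ sInf S + 1 / ((n : ℝ) + 1) := by
    intro n
    obtain ⟨_, ⟨f, hf, hc, rfl⟩, hlt⟩ := exists_lt_of_csInf_lt hS
      (lt_add_of_pos_right (sInf S) (Nat.one_div_pos_of_nat (α := ℝ) (n := n)))
    obtain ⟨f₁, g, l1, l2, hcg, hm, -⟩ := monot hE.1.isClosed hF.1.isClosed hE.2.nonempty
      hF.2.nonempty hc
    obtain ⟨m1, e1⟩ := D.loc_energy hf l1
    obtain ⟨m2, e2⟩ := D.loc_energy m1 l2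
    exact ⟨g, m2, hcg, hm, by linarith⟩
  choose g hg hc hm hI using h3
  obtain ⟨u, φ, hφ, hu⟩ := ascoli_PPot g (fun n => (hc n).1) fun η hη => by
    obtain ⟨δ, hδ, H⟩ := equi_PPot D hE hF hE' hF' (sInf S + 1) hη
    refine ⟨δ, hδ, fun n => H (g n) (hg n) (hc n) (hm n) ((hI n).trans ?_)⟩
    have : 1 / ((n : ℝ) + 1) ≤ 1 := Nat.cast_add_one_pos (α := ℝ) n |> fun h =>
      (div_le_one h).2 (by linarith [Nat.cast_nonneg (α := ℝ) n])
    linarith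
  have h4 : ∀ N : ℕ, u ∈ D.dom ∧ D.I 1 u u ≤ sInf S + 1 / ((N : ℝ) + 1) := by
    intro N
    refine D.lsc (fun n => g (φ (n + N))) u _ (fun n => hg _)
      (hu.comp (tendsto_add_atTop_nat N)) fun n => (hI _).trans ?_
    have : N ≤ φ (n + N) := le_trans (Nat.le_add_left N n) (hφ.id_le _)
    have := Nat.one_div_le_one_div (α := ℝ) this
    linarith
  have h5 : ∀ ξ, Tendsto (fun n => g (φ n) ξ) atTop (𝓝 (u ξ)) := fun ξ =>
    ((continuous_eval_const ξ).tendsto u).comp hu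
  refine ⟨u, (h4 0).1, ⟨fun ξ => ⟨ge_of_tendsto' (h5 ξ) fun n => ((hc _).1 ξ).1,
    le_of_tendsto' (h5 ξ) fun n => ((hc _).1 ξ).2⟩, fun ξ hξ => ?_, fun ξ hξ => ?_⟩,
    fun f hf hcf => ?_⟩
  · refine tendsto_nhds_unique (h5 ξ) ?_
    simp only [(hc _).2.1 ξ hξ, tendsto_const_nhds]
  · refine tendsto_nhds_unique (h5 ξ) ?_
    simp only [(hc _).2.2 ξ hξ, tendsto_const_nhds]
  · refine le_trans ?_ (csInf_le hb ⟨f, hf, hcf, rfl⟩)
    have h6 := tendsto_one_div_add_atTop_nhds_zero_nat (𝕜 := ℝ) |>.const_add (sInf S)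
    rw [add_zero] at h6
    exact ge_of_tendsto' h6 fun N => (h4 N).2

theorem clamp_PPot : Lip2 1 fun p : ℝ × ℝ => max 0 (min p.1 1) := by
  intro p p'
  have h1 : |max 0 (min p.1 1) - max 0 (min p'.1 1)| ≤ |p.1 - p'.1| := by
    rw [max_comm 0, max_comm 0]
    exact (abs_max_sub_max_le_abs _ _ _).trans (by
      simpa using abs_min_sub_min_le_max p.1 1 p'.1 1)
  have h2 := sq_le_sq.2 h1
  nlinarith [sq_nonneg (p.2 - p'.2)]

/-- A minimizer is harmonic. -/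
theorem harm_PPot (D : DF G Z) {E F : Set Z} {u : C(Z, ℝ)} (hu : u ∈ D.dom) (hc : Cond E F u)
    (hmin : ∀ f ∈ D.dom, Cond E F f → D.I 1 u u ≤ D.I 1 f f) : D.Harm (E ∪ F)ᶜ u := by
  refine ⟨hu, fun h hh hs => ?_⟩
  have h0 : ∀ ξ ∈ E ∪ F, h ξ = 0 := fun ξ hξ =>
    image_eq_zero_of_notMem_tsupport fun h' => hs h' hξ
  have key : ∀ t : ℝ, 0 ≤ 2 * t * D.I 1 u h + t ^ 2 * D.I 1 h h := by
    intro t
    have hw : u + t • h ∈ D.dom := D.dom.add_mem hu (D.dom.smul_mem t hh)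
    let c : C(Z, ℝ) := ⟨fun ξ => max 0 (min ((u + t • h) ξ) 1), by fun_prop⟩
    have hcm : c ∈ D.dom := D.comp_mem _ hw 0 D.dom.zero_mem 1 _ clamp_PPot c fun _ => rfl
    have h1 := D.contr _ hw 0 D.dom.zero_mem c hcm 1 _ clamp_PPot univ isOpen_univ
      (fun _ _ => rfl) 1 (fun _ => zero_le_one) (subset_univ _)
    have h2 := hmin c hcm ⟨fun ξ => ⟨le_max_left _ _, max_le zero_le_one (min_le_right _ _)⟩,
      fun ξ hξ => by
        show max 0 (min (u ξ + t * h ξ) 1) = 0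
        rw [hc.2.1 ξ hξ, h0 ξ (Or.inl hξ)]
        simp,
      fun ξ hξ => by
        show max 0 (min (u ξ + t * h ξ) 1) = 1
        rw [hc.2.2 ξ hξ, h0 ξ (Or.inr hξ)]
        simp⟩
    simp only [map_add, map_smul, LinearMap.add_apply, LinearMap.smul_apply, smul_eq_mul,
      map_zero, D.symm 1 h u] at h1
    nlinarith
  have hB : 0 ≤ D.I 1 h h := D.nonneg (fun _ => zero_le_one) hh
  set a := D.I 1 u h
  set b := D.I 1 h h
  have h3 := key (-a / (b + 1))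
  have h4 : 2 * (-a / (b + 1)) * a + (-a / (b + 1)) ^ 2 * b = -(a ^ 2 * (b + 2)) / (b + 1) ^ 2 := by
    field_simp
    ring
  rw [h4, le_div_iff₀ (by positivity), zero_mul] at h3
  have h5 : a ^ 2 ≤ 0 := by nlinarith [sq_nonneg a]
  exact pow_eq_zero_iff (two_ne_zero) |>.1 (le_antisymm h5 (sq_nonneg a))

theorem pot_PPot (X : GP G Z) (D : DF G Z) {E F : Set Z} (hE : Cont E) (hF : Cont F)
    (hE' : E.Nontrivial) (hF' : F.Nontrivial) (hd : Disjoint E F) :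
    ∃ u : C(Z, ℝ), Cond E F u ∧ D.Harm (E ∪ F)ᶜ u := by
  obtain ⟨u, hu, hc, hmin⟩ := min_PPot X D hE hF hE' hF' hd
  exact ⟨u, hc, harm_PPot D hu hc hmin⟩

end Vale.Agent.P198
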