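import Vale.Agent.P198.U.Main

/-! # P198 block P, file Sq: two condenser functions cover the square -/

namespace Vale.Agent.P198
open Set Metric Filter Topology MeasureTheory
variable {Z : Type} [MetricSpace Z]

theorem join_PSq [LocallyPathConnectedSpace Z] {U A : Set Z} (hU : IsOpen U)
    (hA : IsPreconnected A) (hAU : A ⊆ U) {a b : Z} (ha : a ∈ A) (hb : b ∈ A) :
    JoinedIn U a b := by
  have h1 := hA.subset_connectedComponentIn ha hAU
  have h2 := (hU.connectedComponentIn (x := a)).isConnected_iff_isPathConnected.1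
    (isConnected_connectedComponentIn_iff.2 (hAU ha))
  exact (h2.joinedIn a (h1 ha) b (h1 hb)).mono (connectedComponentIn_subset U a)

theorem closed_PSq {L : Set Z} (hL : IsClosed L) {x : Z} (hx : x ∈ L) :
    IsClosed (connectedComponentIn L x) := by
  refine isClosed_of_closure_subset ?_
  exact isPreconnected_connectedComponentIn.closure.subset_connectedComponentIn
    (subset_closure (mem_connectedComponentIn hx))
    (closure_minimal (connectedComponentIn_subset L x) hL)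

theorem cover_PSq (hZ : Nonempty (Z ≃ₜ S2)) {E₁ F₁ E₂ F₂ : Set Z} (hE₁ : Cont E₁) (hF₁ : Cont F₁)
    (hE₂ : Cont E₂) (hF₂ : Cont F₂) (h1 : (E₁ ∩ E₂).Nonempty) (h2 : (F₁ ∩ E₂).Nonempty)
    (h3 : (E₁ ∩ F₂).Nonempty) (h4 : (F₁ ∩ F₂).Nonempty) {u v : C(Z, ℝ)} (hu : Cond E₁ F₁ u)
    (hv : Cond E₂ F₂ v) {s t : ℝ} (hs : s ∈ Ioo (0 : ℝ) 1) (ht : t ∈ Icc (0 : ℝ) 1) :
    ∃ ξ, u ξ = s ∧ v ξ = t := by
  obtain ⟨-, hl, -⟩ := sph_conn hZ
  obtain ⟨a, ha⟩ := hE₁.2.nonempty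
  obtain ⟨b, hb⟩ := hF₁.2.nonempty
  have hL : IsClosed {ξ | u ξ = s} := isClosed_eq u.continuous continuous_const
  have hE : ∀ ξ ∈ E₁, ξ ∉ {ξ | u ξ = s} := fun ξ hξ h =>
    hs.1.ne ((hu.2.1 ξ hξ).symm.trans h)
  have hF : ∀ ξ ∈ F₁, ξ ∉ {ξ | u ξ = s} := fun ξ hξ h =>
    hs.2.ne' ((hu.2.2 ξ hξ).symm.trans h)
  obtain ⟨x, hx, hsep⟩ := sph_unicoh hZ hL (hE a ha) (hF b hb) (by
    intro hj
    obtain ⟨γ, hγ⟩ := hj
    have h5 := (isPreconnected_range γ.continuous).intermediate_value ⟨0, γ.source⟩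
      ⟨1, γ.target⟩ u.continuous.continuousOn
    rw [hu.2.1 a ha, hu.2.2 b hb] at h5
    obtain ⟨_, ⟨τ, rfl⟩, h6⟩ := h5 ⟨hs.1.le, hs.2.le⟩
    exact hγ τ h6)
  have hsub := connectedComponentIn_subset {ξ | u ξ = s} x
  have meet : ∀ A : Set Z, Cont A → (E₁ ∩ A).Nonempty → (F₁ ∩ A).Nonempty →
      ∃ ξ ∈ connectedComponentIn {ξ | u ξ = s} x, ξ ∈ A := by
    intro A hA g1 g2
    by_contra hc
    refine hsep (join_PSq (A := F₁ ∪ (E₁ ∪ A)) (closed_PSq hL hx).isOpen_compl ?_ ?_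
      (Or.inr (Or.inl ha)) (Or.inl hb))
    · exact (hF₁.2.union (g2.mono fun ξ hξ => ⟨hξ.1, Or.inr hξ.2⟩)
        (hE₁.2.union g1 hA.2)).isPreconnected
    · rintro ξ (hξ | hξ | hξ) h
      · exact hF ξ hξ (hsub h)
      · exact hE ξ hξ (hsub h)
      · exact hc ⟨ξ, h, hξ⟩
  obtain ⟨y, hy, hy'⟩ := meet E₂ hE₂ h1 h2
  obtain ⟨z, hz, hz'⟩ := meet F₂ hF₂ h3 h4
  have h7 := isPreconnected_connectedComponentIn.intermediate_value hy hz
    v.continuous.continuousOn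
  rw [hv.2.1 y hy', hv.2.2 z hz'] at h7
  obtain ⟨ξ, hξ, h8⟩ := h7 ht
  exact ⟨ξ, hsub hξ, h8⟩

end Vale.Agent.P198
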