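import Vale.Agent.P198.E.Main
import Vale.Agent.P198.P.Pot
import Vale.Agent.P198.P.Sq

/-! # P198 block P: condenser potentials (interface) -/

namespace Vale.Agent.P198
open Set Metric Filter Topology MeasureTheory
variable {G Z : Type} [Group G] [MetricSpace Z] [CompactSpace Z] [MulAction G Z]
  [ContinuousConstSMul G Z] [MeasurableSpace Z] [BorelSpace Z]

theorem DF.exists_hp (X : GP G Z) (D : DF G Z) : ∃ O u v, D.HP O u v := by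
  obtain ⟨E₁, F₁, E₂, F₂, ⟨c1, c2, c3, c4⟩, ⟨n1, n2, n3, n4⟩, d1, d2, i1, i2, i3, i4⟩ :=
    sph_square X.sph
  obtain ⟨u, hu, hu'⟩ := pot_PPot X D c1 c2 n1 n2 d1
  obtain ⟨v, hv, hv'⟩ := pot_PPot X D c3 c4 n3 n4 d2
  refine ⟨(E₁ ∪ F₁)ᶜ ∩ (E₂ ∪ F₂)ᶜ, u, v,
    (c1.1.union c2.1).isClosed.isOpen_compl.inter (c3.1.union c4.1).isClosed.isOpen_compl,
    ⟨hu'.1, fun h hh hs => hu'.2 h hh (hs.trans inter_subset_left)⟩,
    ⟨hv'.1, fun h hh hs => hv'.2 h hh (hs.trans inter_subset_right)⟩,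
    u ⁻¹' Icc (1 / 4) (3 / 4) ∩ v ⁻¹' Icc (1 / 4) (3 / 4),
    ((isClosed_Icc.preimage u.continuous).inter (isClosed_Icc.preimage v.continuous)).isCompact,
    ?_, ?_⟩
  · rintro ξ ⟨⟨h1, h2⟩, h3, h4⟩
    refine ⟨?_, ?_⟩
    · rintro (h | h)
      · linarith [hu.2.1 ξ h]
      · linarith [hu.2.2 ξ h]
    · rintro (h | h)
      · linarith [hv.2.1 ξ h]
      · linarith [hv.2.2 ξ h]
  · have ho : IsOpen (Ioo (1 / 4 : ℝ) (3 / 4) ×ℂ Ioo (1 / 4 : ℝ) (3 / 4)) :=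
      isOpen_Ioo.reProdIm isOpen_Ioo
    refine lt_of_lt_of_le (ho.measure_pos volume ⟨⟨1 / 2, 1 / 2⟩, ?_⟩) (measure_mono ?_)
    · rw [Complex.mem_reProdIm]
      norm_num
    · intro z hz
      obtain ⟨⟨h1, h2⟩, h3, h4⟩ := Complex.mem_reProdIm.1 hz
      obtain ⟨ξ, e1, e2⟩ := cover_PSq X.sph c1 c2 c3 c4 i1 i2 i3 i4 hu hv (s := z.re) (t := z.im)
        ⟨by linarith, by linarith⟩ ⟨by linarith, by linarith⟩
      refine ⟨ξ, ⟨⟨by rw [e1]; exact h1.le, by rw [e1]; exact h2.le⟩,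
        ⟨by rw [e2]; exact h3.le, by rw [e2]; exact h4.le⟩⟩, ?_⟩
      exact Complex.ext e1 e2

end Vale.Agent.P198
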